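import Vale.Agent.P079W.Main
import Vale.Agent.P079.Final

open Filter Topology Set

namespace Vale.Agent.P079

variable {X : Type*} [NormedAddCommGroup X] [NormedSpace ℝ X]

/-- weakly compact sets are norm closed -/
theorem isClosed_of_weaklyCompact {C : Set X} (hC : IsCompact (toWeakSpace ℝ X '' C)) :
    IsClosed C := by
  have h1 : IsClosed (toWeakSpace ℝ X '' C) := hC.isClosed
  have h2 : C = (toWeakSpaceCLM ℝ X) ⁻¹' (toWeakSpace ℝ X '' C) := by
    ext x
    constructor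
    · intro hx
      exact ⟨x, hx, rfl⟩
    · rintro ⟨y, hy, hxy⟩
      have : y = x := (toWeakSpace ℝ X).injective hxy
      rwa [← this]
  rw [h2]
  exact h1.preimage (toWeakSpaceCLM ℝ X).continuous

/-- weakly compact sets are norm bounded (uniform boundedness principle) -/
theorem isBounded_of_weaklyCompact {C : Set X} (hC : IsCompact (toWeakSpace ℝ X '' C)) :
    Bornology.IsBounded C := by
  have hpt : ∀ f : StrongDual ℝ X, ∃ M, ∀ x : C,
      ‖NormedSpace.inclusionInDoubleDual ℝ X (x : X) f‖ ≤ M := by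
    intro f
    have hcont : Continuous fun y : WeakSpace ℝ X => (topDualPairing ℝ X).flip y f :=
      WeakBilin.eval_continuous (topDualPairing ℝ X).flip f
    have hcomp : IsCompact ((fun y : WeakSpace ℝ X => (topDualPairing ℝ X).flip y f) ''
        (toWeakSpace ℝ X '' C)) := hC.image hcont
    obtain ⟨M, hM⟩ := hcomp.isBounded.exists_norm_le
    refine ⟨M, fun x => ?_⟩
    have h3 := hM _ ⟨toWeakSpace ℝ X x, ⟨x, x.2, rfl⟩, rfl⟩
    rw [NormedSpace.dual_def]
    exact h3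
  obtain ⟨M, hM⟩ := banach_steinhaus (g := fun x : C =>
    NormedSpace.inclusionInDoubleDual ℝ X (x : X)) hpt
  rw [isBounded_iff_forall_norm_le]
  refine ⟨M, fun x hx => ?_⟩
  have h1 := hM ⟨x, hx⟩
  have h2 : ‖NormedSpace.inclusionInDoubleDual ℝ X x‖ = ‖x‖ :=
    (NormedSpace.inclusionInDoubleDualLi ℝ (E := X)).norm_map x
  simpa [h2] using h1

variable [CompleteSpace X]

theorem fixedPoint_of_nearWorth'
    {μ : ℝ} (hμ0 : 0 ≤ μ) (hμ : 2 * μ ^ 2 + μ < 5) (hW : NearWorth X μ)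
    {T : X → X} {C : Set X} (hCc : IsCompact (toWeakSpace ℝ X '' C)) (hC : InvSet T C)
    (hT : ∀ a ∈ C, ∀ b ∈ C, ‖T a - T b‖ ≤ ‖a - b‖) : ∃ x ∈ C, T x = x := by
  apply fixedPoint_of_key' (κ := (3 + μ + 2 * μ ^ 2) / 8) (by positivity) (by linarith) hCc hC hT
  intro K hKC hK r _ hr
  exact main_lemma' hμ0 hW (isCompact_image_of_subset hCc hKC hK.closed hK.convex) hK
    (fun a ha b hb => hT a (hKC ha) b (hKC hb)) hr

/-- weak fixed point property for self-maps of the subtype -/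
theorem wfpp_subtype
    {μ : ℝ} (hμ0 : 0 ≤ μ) (hμ : 2 * μ ^ 2 + μ < 5) (hW : NearWorth X μ)
    (C : Set X) (hne : C.Nonempty) (hconv : Convex ℝ C)
    (hCc : IsCompact (toWeakSpace ℝ X '' C))
    (T : C → C) (hT : ∀ a b : C, ‖(T a : X) - T b‖ ≤ ‖(a : X) - b‖) :
    ∃ x : C, T x = x := by
  classical
  set T' : X → X := fun x => if h : x ∈ C then (T ⟨x, h⟩ : X) else x with hT'
  have hval : ∀ (x : X) (h : x ∈ C), T' x = (T ⟨x, h⟩ : X) := by
    intro x h
    simp only [hT', dif_pos h]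
  have hinv : InvSet T' C :=
    { nonempty := hne
      closed := isClosed_of_weaklyCompact hCc
      bounded := isBounded_of_weaklyCompact hCc
      convex := hconv
      maps := by
        intro x hx
        rw [hval x hx]
        exact (T ⟨x, hx⟩).2 }
  have hnon : ∀ a ∈ C, ∀ b ∈ C, ‖T' a - T' b‖ ≤ ‖a - b‖ := by
    intro a ha b hb
    rw [hval a ha, hval b hb]
    exact hT ⟨a, ha⟩ ⟨b, hb⟩
  obtain ⟨x, hxC, hx⟩ := fixedPoint_of_nearWorth' hμ0 hμ hW hCc hinv hnon
  refine ⟨⟨x, hxC⟩, ?_⟩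
  apply Subtype.ext
  rw [← hval x hxC]
  exact hx

end Vale.Agent.P079
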