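import Vale.Agent.P079W.Minimal

open Filter Topology Set

namespace Vale.Agent.P079

variable {X : Type*} [NormedAddCommGroup X] [NormedSpace ℝ X] [CompleteSpace X]

/-- Main lemma: existence of approximate fixed points close to the weak limit of an approximate
fixed point sequence. -/
theorem main_lemma'
    {μ : ℝ} (hμ : 0 ≤ μ) (hW : NearWorth X μ)
    {T : X → X} {K : Set X} (hKc : IsCompact (toWeakSpace ℝ X '' K)) (hK : InvSet T K)
    (hT : ∀ a ∈ K, ∀ b ∈ K, ‖T a - T b‖ ≤ ‖a - b‖)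
    {r : ℝ} (hr : ∀ a ∈ K, ∀ b ∈ K, ‖a - b‖ ≤ r) :
    ∃ xi ∈ K, ∀ t : ℝ, 0 < t → t ≤ 1 → ∀ η > 0, ∃ y ∈ K, ‖y - T y‖ ≤ t * r ∧
      ‖y - xi‖ ≤ (3 + μ + 2 * μ ^ 2) / 8 * r + η := by
  obtain ⟨w0, hw0⟩ := hK.nonempty
  have hr0 : 0 ≤ r := le_trans (norm_nonneg _) (hr w0 hw0 w0 hw0)
  -- base approximate fixed point sequence
  choose x hxK hxeq using fun n : ℕ => exists_resolvent hK hT hw0
    (t := 1 / ((n : ℝ) + 1)) (by positivity)
    (by rw [div_le_one (by positivity)]; have : (0 : ℝ) ≤ n := Nat.cast_nonneg n; linarith)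
  have hxdisp : ∀ n, ‖x n - T (x n)‖ ≤ 1 / ((n : ℝ) + 1) * r := fun n =>
    resolvent_displacement hK hr hw0 (hxK n) (by positivity) (hxeq n)
  have hx0 : Tendsto (fun n => ‖x n - T (x n)‖) atTop (𝓝 0) := by
    apply squeeze_zero (fun k => norm_nonneg _) hxdisp
    have := (tendsto_one_div_add_atTop_nhds_zero_nat (𝕜 := ℝ)).mul_const r
    simpa using this
  set U : Ultrafilter ℕ := Filter.hyperfilter ℕ with hU
  have hUle : (U : Filter ℕ) ≤ atTop := hyperfilter_le_atTop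
  obtain ⟨xi, hxiK, hxi⟩ := exists_wlimit_of_isCompact hKc U x
    (Eventually.of_forall hxK)
  refine ⟨xi, hxiK, ?_⟩
  intro t ht0 ht1 η hη
  -- the small parameter
  set δ : ℝ := η / (2 + μ + μ ^ 2) with hδ
  have hden : 0 < 2 + μ + μ ^ 2 := by positivity
  have hδ0 : 0 < δ := by positivity
  have hδη : δ * (2 + μ + μ ^ 2) = η := by rw [hδ]; field_simp
  -- doubly indexed resolvent points
  have hmid : ∀ n m, (1 / 2 : ℝ) • x n + (1 / 2 : ℝ) • x m ∈ K := fun n m =>
    hK.convex (hxK n) (hxK m) (by norm_num) (by norm_num) (by norm_num)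
  choose y hyK hyeq using fun n m : ℕ => exists_resolvent hK hT (hmid n m) ht0 ht1
  obtain ⟨p, hpK, hpeq⟩ := exists_resolvent hK hT hxiK ht0 ht1
  choose yl hylK hyl using fun n : ℕ => exists_wlimit_of_isCompact hKc U (y n)
    (Eventually.of_forall (hyK n))
  obtain ⟨z, hzK, hz⟩ := exists_wlimit_of_isCompact hKc U yl
    (Eventually.of_forall hylK)
  -- eventually small displacement
  have hsmall : ∀ᶠ n in (U : Filter ℕ), ‖x n - T (x n)‖ / t ≤ δ := by
    apply hUle
    have h1 : ∀ᶠ n in atTop, ‖x n - T (x n)‖ < δ * t :=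
      hx0.eventually (gt_mem_nhds (by positivity))
    filter_upwards [h1] with n hn
    rw [div_le_iff₀ ht0]
    exact hn.le
  have hmid1 : ∀ n m, ‖((1 / 2 : ℝ) • x n + (1 / 2 : ℝ) • x m) - x n‖ ≤ r / 2 := by
    intro n m
    have : ((1 / 2 : ℝ) • x n + (1 / 2 : ℝ) • x m) - x n = (1 / 2 : ℝ) • (x m - x n) := by
      have h1 : x n = (1 / 2 : ℝ) • x n + (1 / 2 : ℝ) • x n := by
        rw [← add_smul]; norm_num
      rw [smul_sub]
      nth_rewrite 2 [h1]
      abel
    rw [this, norm_smul, Real.norm_of_nonneg (by norm_num)]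
    have := hr _ (hxK m) _ (hxK n)
    linarith
  have hmid2 : ∀ n m, ‖((1 / 2 : ℝ) • x n + (1 / 2 : ℝ) • x m) - x m‖ ≤ r / 2 := by
    intro n m
    have := hmid1 m n
    rwa [add_comm] at this
  -- (E-a)
  have hEa : ∀ n, ‖yl n - xi‖ ≤ r / 2 + δ := by
    intro n
    have h1 : WTendsto (fun m => y n m - x m) (U : Filter ℕ) (yl n - xi) := (hyl n).sub hxi
    apply norm_le_of_wtendsto h1
    filter_upwards [hsmall] with m hm
    have := resolvent_dist_approx hT (hyK n m) (hxK m) ht0 ht1 (hyeq n m)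
    have h2 := hmid2 n m
    linarith
  -- (E-b)
  have hEb1 : ∀ᶠ n in (U : Filter ℕ), ∀ m, ‖y n m - x n‖ ≤ r / 2 + δ := by
    filter_upwards [hsmall] with n hn
    intro m
    have := resolvent_dist_approx hT (hyK n m) (hxK n) ht0 ht1 (hyeq n m)
    have h2 := hmid1 n m
    linarith
  set Z : X := z - xi with hZ
  set V : Filter (ℕ × ℕ) := (U : Filter ℕ).curry (U : Filter ℕ) with hV
  have hycurry : WTendsto (fun i : ℕ × ℕ => y i.1 i.2) V z := wtendsto_curry hyl hz
  have hxcurry : WTendsto (fun i : ℕ × ℕ => x i.1) V xi :=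
    wtendsto_curry (u := fun n _ => x n) (fun n => wtendsto_const _ (x n)) hxi
  -- the family d
  have hdnull : WTendsto (fun i : ℕ × ℕ => y i.1 i.2 - z - x i.1 + xi) V 0 := by
    have := ((hycurry.sub (wtendsto_const V z)).sub hxcurry).add (wtendsto_const V xi)
    simpa using this
  have hdlim : HasWLimits (fun i : ℕ × ℕ => y i.1 i.2 - z - x i.1 + xi) :=
    (((hasWLimits_of_mem hKc (u := fun i : ℕ × ℕ => y i.1 i.2) fun i => hyK i.1 i.2).sub
      (hasWLimits_const z)).sub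
      (hasWLimits_of_mem hKc (u := fun i : ℕ × ℕ => x i.1) fun i => hxK i.1)).add
      (hasWLimits_const xi)
  have hd1 : ∀ᶠ i in V, ‖(y i.1 i.2 - z - x i.1 + xi) - (-Z)‖ ≤ r / 2 + δ := by
    rw [hV, eventually_curry_iff]
    filter_upwards [hEb1] with n hn
    refine Eventually.of_forall fun m => ?_
    have : (y n m - z - x n + xi) - (-Z) = y n m - x n := by rw [hZ]; abel
    simp only [this]
    exact hn m
  have hd2 : ∀ᶠ i in V, ‖(y i.1 i.2 - z - x i.1 + xi) + (-Z)‖ ≤ μ * (r / 2 + δ) + δ :=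
    hW.eventually' hdlim hdnull (-Z) hd1 hδ0
  -- second flip, for fixed n
  have hEb2 : ∀ᶠ n in (U : Filter ℕ), ∀ᶠ m in (U : Filter ℕ),
      ‖(y n m - yl n) + (Z - (yl n - z - x n + xi))‖ ≤ μ * (μ * (r / 2 + δ) + δ) + δ := by
    rw [hV, eventually_curry_iff] at hd2
    filter_upwards [hd2] with n hn
    have hbnull : WTendsto (fun m => y n m - yl n) (U : Filter ℕ) 0 := by
      have := (hyl n).sub (wtendsto_const (U : Filter ℕ) (yl n))
      simpa using this
    have hblim : HasWLimits (fun m => y n m - yl n) :=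
      (hasWLimits_of_mem hKc (hyK n)).sub (hasWLimits_const (yl n))
    apply hW.eventually' hblim hbnull (Z - (yl n - z - x n + xi)) _ hδ0
    filter_upwards [hn] with m hm
    have : (y n m - yl n) - (Z - (yl n - z - x n + xi)) = (y n m - z - x n + xi) + (-Z) := by
      abel
    rw [this]
    exact hm
  have hEb : ∀ᶠ n in (U : Filter ℕ), ∀ᶠ m in (U : Filter ℕ),
      ‖Z + (y n m - yl n)‖ ≤ ((r / 2 + δ) + (μ * (μ * (r / 2 + δ) + δ) + δ)) / 2 := by
    filter_upwards [hEb1, hEb2] with n hn1 hn2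
    filter_upwards [hn2] with m hm
    have h1 : Z + (y n m - yl n) = (1 / 2 : ℝ) • ((y n m - x n) +
        ((y n m - yl n) + (Z - (yl n - z - x n + xi)))) := by
      have h2 : (y n m - x n) + ((y n m - yl n) + (Z - (yl n - z - x n + xi)))
          = (2 : ℝ) • (Z + (y n m - yl n)) := by
        rw [two_smul, hZ]; abel
      rw [h2, smul_smul]; norm_num
    rw [h1, norm_smul, Real.norm_of_nonneg (by norm_num)]
    have h3 := norm_add_le (y n m - x n) ((y n m - yl n) + (Z - (yl n - z - x n + xi)))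
    have h4 := hn1 m
    linarith
  -- (E-c)
  have hxnull : WTendsto (fun m => x m - xi) (U : Filter ℕ) 0 := by
    have := hxi.sub (wtendsto_const (U : Filter ℕ) xi)
    simpa using this
  have hxlim : HasWLimits (fun m => x m - xi) :=
    (hasWLimits_of_mem hKc hxK).sub (hasWLimits_const xi)
  have hEc1 : ∀ n, ∀ᶠ m in (U : Filter ℕ), ‖y n m - p‖ ≤ (μ * r + δ) / 2 := by
    intro n
    have h1 : ∀ᶠ m in (U : Filter ℕ), ‖(x m - xi) + (x n - xi)‖ ≤ μ * r + δ := by
      apply hW.eventually' hxlim hxnull (x n - xi) _ hδ0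
      refine Eventually.of_forall fun m => ?_
      have : (x m - xi) - (x n - xi) = x m - x n := by abel
      rw [this]
      exact hr _ (hxK m) _ (hxK n)
    filter_upwards [h1] with m hm
    have h2 := resolvent_dist_resolvent hT (hyK n m) hpK ht0 ht1 (hyeq n m) hpeq
    have h3 : ((1 / 2 : ℝ) • x n + (1 / 2 : ℝ) • x m) - xi
        = (1 / 2 : ℝ) • ((x m - xi) + (x n - xi)) := by
      have h4 : xi = (1 / 2 : ℝ) • xi + (1 / 2 : ℝ) • xi := by
        rw [← add_smul]; norm_num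
      rw [smul_add, smul_sub, smul_sub]
      nth_rewrite 1 [h4]
      abel
    rw [h3, norm_smul, Real.norm_of_nonneg (by norm_num)] at h2
    linarith
  set Q : X := z - p with hQ
  have henull : WTendsto (fun i : ℕ × ℕ => y i.1 i.2 - z) V 0 := by
    have := hycurry.sub (wtendsto_const V z)
    simpa using this
  have helim : HasWLimits (fun i : ℕ × ℕ => y i.1 i.2 - z) :=
    (hasWLimits_of_mem hKc (u := fun i : ℕ × ℕ => y i.1 i.2) fun i => hyK i.1 i.2).sub
      (hasWLimits_const z)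
  have he1 : ∀ᶠ i in V, ‖(y i.1 i.2 - z) - (-Q)‖ ≤ (μ * r + δ) / 2 := by
    rw [hV, eventually_curry_iff]
    refine Eventually.of_forall fun n => ?_
    filter_upwards [hEc1 n] with m hm
    have : (y n m - z) - (-Q) = y n m - p := by rw [hQ]; abel
    simp only [this]
    exact hm
  have he2 : ∀ᶠ i in V, ‖(y i.1 i.2 - z) + (-Q)‖ ≤ μ * ((μ * r + δ) / 2) + δ :=
    hW.eventually' helim henull (-Q) he1 hδ0
  have hEc : ∀ᶠ i in V, ‖y i.1 i.2 - z‖ ≤ ((μ * r + δ) / 2 + (μ * ((μ * r + δ) / 2) + δ)) / 2 := by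
    filter_upwards [he1, he2] with i hi1 hi2
    have h1 : y i.1 i.2 - z = (1 / 2 : ℝ) • (((y i.1 i.2 - z) - (-Q)) + ((y i.1 i.2 - z) + (-Q))) := by
      have h2 : ((y i.1 i.2 - z) - (-Q)) + ((y i.1 i.2 - z) + (-Q)) = (2 : ℝ) • (y i.1 i.2 - z) := by
        rw [two_smul]; abel
      rw [h2, smul_smul]; norm_num
    rw [h1, norm_smul, Real.norm_of_nonneg (by norm_num)]
    have h3 := norm_add_le ((y i.1 i.2 - z) - (-Q)) ((y i.1 i.2 - z) + (-Q))
    linarith
  -- combine
  have hEb' : ∀ᶠ i in V, ‖Z + (y i.1 i.2 - yl i.1)‖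
      ≤ ((r / 2 + δ) + (μ * (μ * (r / 2 + δ) + δ) + δ)) / 2 := by
    rw [hV, eventually_curry_iff]
    exact hEb
  have hboth := hEb'.and hEc
  rw [hV, eventually_curry_iff] at hboth
  obtain ⟨n0, hn0⟩ := hboth.exists
  obtain ⟨m0, hi1, hi2⟩ := hn0.exists
  set i : ℕ × ℕ := (n0, m0) with hi
  refine ⟨y i.1 i.2, hyK _ _, ?_, ?_⟩
  · exact resolvent_displacement hK hr (hmid _ _) (hyK _ _) ht0 (hyeq _ _)
  · have h1 : y i.1 i.2 - xi = (1 / 2 : ℝ) • ((yl i.1 - xi) + (Z + (y i.1 i.2 - yl i.1))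
        + (y i.1 i.2 - z)) := by
      have h2 : (yl i.1 - xi) + (Z + (y i.1 i.2 - yl i.1)) + (y i.1 i.2 - z)
          = (2 : ℝ) • (y i.1 i.2 - xi) := by
        rw [two_smul, hZ]; abel
      rw [h2, smul_smul]; norm_num
    rw [h1, norm_smul, Real.norm_of_nonneg (by norm_num)]
    have h3 := norm_add₃_le (a := yl i.1 - xi) (b := Z + (y i.1 i.2 - yl i.1))
      (c := y i.1 i.2 - z)
    have h4 := hEa i.1
    have h5 : 0 ≤ μ * δ := by positivity
    have h6 : 0 ≤ μ ^ 2 * δ := by positivity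
    nlinarith [h3, h4, h5, h6, hi1, hi2, hδη]

end Vale.Agent.P079
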