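import Vale.Agent.P079W.Weak

open Filter Topology Set

namespace Vale.Agent.P079

variable {X : Type*} [NormedAddCommGroup X] [NormedSpace ℝ X]

theorem exists_minInv'
    {T : X → X} {C : Set X} (hCc : IsCompact (toWeakSpace ℝ X '' C)) (hC : InvSet T C) :
    ∃ K, K ⊆ C ∧ MinInv T K := by
  obtain ⟨K, hKC, hK⟩ := zorn_superset_nonempty {D : Set X | InvSet T D ∧ D ⊆ C} (by
    intro c hc hchain hne
    refine ⟨⋂₀ c, ?_, fun s hs => sInter_subset_of_mem hs⟩
    obtain ⟨D0, hD0⟩ := hne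
    have hnonempty : (⋂₀ c).Nonempty := by
      have : Nonempty c := ⟨⟨D0, hD0⟩⟩
      have h := IsCompact.nonempty_iInter_of_directed_nonempty_isCompact_isClosed
        (fun D : c => toWeakSpace ℝ X '' (D : Set X)) (by
          intro D1 D2
          rcases hchain.total D1.2 D2.2 with h | h
          · exact ⟨D1, subset_rfl, image_mono h⟩
          · exact ⟨D2, image_mono h, subset_rfl⟩)
        (fun D => (hc D.2).1.nonempty.image _)
        (fun D => isCompact_image_of_subset hCc (hc D.2).2 (hc D.2).1.closed (hc D.2).1.convex)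
        (fun D => isClosed_image_toWeakSpace (hc D.2).1.closed (hc D.2).1.convex)
      obtain ⟨y, hy⟩ := h
      refine ⟨(toWeakSpace ℝ X).symm y, ?_⟩
      intro D hD
      have := mem_iInter.1 hy ⟨D, hD⟩
      obtain ⟨x, hx, rfl⟩ := this
      simpa using hx
    exact ⟨
      { nonempty := hnonempty
        closed := isClosed_sInter fun D hD => (hc hD).1.closed
        bounded := (hc hD0).1.bounded.subset (sInter_subset_of_mem hD0)
        convex := convex_sInter fun D hD => (hc hD).1.convex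
        maps := fun x hx D hD => (hc hD).1.maps (hx D hD) },
      (sInter_subset_of_mem hD0).trans (hc hD0).2⟩) C ⟨hC, subset_rfl⟩
  refine ⟨K, hKC, hK.prop.1, fun D hDK hD => ?_⟩
  exact (hK.eq_of_subset ⟨hD, hDK.trans hKC⟩ hDK)

/-- Goebel-Karlovitz lemma (quantitative form) in weakly compact minimal invariant sets. -/
theorem MinInv.goebel_karlovitz'
    {T : X → X} {K : Set X} (hKc : IsCompact (toWeakSpace ℝ X '' K)) (hK : MinInv T K)
    (hT : ∀ a ∈ K, ∀ b ∈ K, ‖T a - T b‖ ≤ ‖a - b‖) {ρ : ℝ} {x₀ : X} (hx₀ : x₀ ∈ K)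
    (happ : ∀ δ > 0, ∃ y ∈ K, ‖y - T y‖ ≤ δ ∧ ‖y - x₀‖ ≤ ρ) :
    ∀ a ∈ K, ∀ b ∈ K, ‖a - b‖ ≤ ρ := by
  choose v hvK hv1 hv2 using fun k : ℕ => happ (1 / ((k : ℝ) + 1)) (by positivity)
  have hv0 : Tendsto (fun k => ‖v k - T (v k)‖) atTop (𝓝 0) := by
    apply squeeze_zero (fun k => norm_nonneg _) hv1
    exact tendsto_one_div_add_atTop_nhds_zero_nat
  set D : Set X := {x ∈ K | ∀ η > 0, ∀ᶠ k in atTop, ‖v k - x‖ ≤ ρ + η} with hD
  have hDK : D ⊆ K := fun x hx => hx.1
  have hinv : InvSet T D :=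
    { nonempty := ⟨x₀, hx₀, fun η hη => Eventually.of_forall fun k => by
        have := hv2 k; linarith⟩
      closed := by
        apply isClosed_of_closure_subset
        intro x hx
        have hxK : x ∈ K := by
          have := closure_mono hDK hx
          rwa [hK.1.closed.closure_eq] at this
        refine ⟨hxK, fun η hη => ?_⟩
        obtain ⟨y, hyD, hy⟩ := Metric.mem_closure_iff.1 hx (η / 2) (by positivity)
        rw [dist_eq_norm] at hy
        filter_upwards [hyD.2 (η / 2) (by positivity)] with k hk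
        calc ‖v k - x‖ = ‖(v k - y) - (x - y)‖ := by congr 1; abel
          _ ≤ ‖v k - y‖ + ‖x - y‖ := norm_sub_le _ _
          _ ≤ ρ + η := by linarith
      bounded := hK.1.bounded.subset hDK
      convex := by
        intro x hx y hy a b ha hb hab
        refine ⟨hK.1.convex hx.1 hy.1 ha hb hab, fun η hη => ?_⟩
        filter_upwards [hx.2 η hη, hy.2 η hη] with k hk1 hk2
        have : v k - (a • x + b • y) = a • (v k - x) + b • (v k - y) := by
          have h1 : v k = a • v k + b • v k := by rw [← add_smul, hab, one_smul]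
          rw [smul_sub, smul_sub]
          nth_rewrite 1 [h1]
          abel
        rw [this]
        calc ‖a • (v k - x) + b • (v k - y)‖ ≤ ‖a • (v k - x)‖ + ‖b • (v k - y)‖ :=
              norm_add_le _ _
          _ = a * ‖v k - x‖ + b * ‖v k - y‖ := by
              rw [norm_smul, norm_smul, Real.norm_of_nonneg ha, Real.norm_of_nonneg hb]
          _ ≤ a * (ρ + η) + b * (ρ + η) := by gcongr
          _ = ρ + η := by rw [← add_mul, hab, one_mul]
      maps := by
        intro x hx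
        refine ⟨hK.1.maps hx.1, fun η hη => ?_⟩
        have h1 : ∀ᶠ k in atTop, ‖v k - T (v k)‖ < η / 2 :=
          hv0.eventually (gt_mem_nhds (by positivity))
        filter_upwards [hx.2 (η / 2) (by positivity), h1] with k hk1 hk2
        calc ‖v k - T x‖ = ‖(v k - T (v k)) + (T (v k) - T x)‖ := by congr 1; abel
          _ ≤ ‖v k - T (v k)‖ + ‖T (v k) - T x‖ := norm_add_le _ _
          _ ≤ ‖v k - T (v k)‖ + ‖v k - x‖ := by
              gcongr
              exact hT _ (hvK k) _ hx.1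
          _ ≤ ρ + η := by linarith }
  have heq := hK.2 D hDK hinv
  obtain ⟨w, hwK, hw⟩ := exists_wlimit_of_isCompact hKc
    (Filter.hyperfilter ℕ) v (Eventually.of_forall hvK)
  apply hK.diam_le_of_radius hT hwK
  intro y hy
  have hyD : y ∈ D := by rw [heq]; exact hy
  apply le_of_forall_pos_le_add
  intro η hη
  have h1 : WTendsto (fun k => v k - y) (Filter.hyperfilter ℕ : Filter ℕ) (w - y) :=
    hw.sub (wtendsto_const _ y)
  apply norm_le_of_wtendsto h1
  exact hyperfilter_le_atTop (hyD.2 η hη)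

/-- General scheme, weakly compact version. -/
theorem fixedPoint_of_key'
    {κ : ℝ} (hκ0 : 0 ≤ κ) (hκ1 : κ < 1)
    {T : X → X} {C : Set X} (hCc : IsCompact (toWeakSpace ℝ X '' C)) (hC : InvSet T C)
    (hT : ∀ a ∈ C, ∀ b ∈ C, ‖T a - T b‖ ≤ ‖a - b‖)
    (key : ∀ K : Set X, K ⊆ C → InvSet T K → ∀ r : ℝ, 0 < r → (∀ a ∈ K, ∀ b ∈ K, ‖a - b‖ ≤ r) →
      ∃ xi ∈ K, ∀ t : ℝ, 0 < t → t ≤ 1 → ∀ η > 0, ∃ y ∈ K, ‖y - T y‖ ≤ t * r ∧
        ‖y - xi‖ ≤ κ * r + η) : ∃ x ∈ C, T x = x := by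
  obtain ⟨K, hKC, hK⟩ := exists_minInv' hCc hC
  have hKc : IsCompact (toWeakSpace ℝ X '' K) :=
    isCompact_image_of_subset hCc hKC hK.1.closed hK.1.convex
  have hTK : ∀ a ∈ K, ∀ b ∈ K, ‖T a - T b‖ ≤ ‖a - b‖ := fun a ha b hb =>
    hT a (hKC ha) b (hKC hb)
  obtain ⟨r0, hr0⟩ := Metric.isBounded_iff.1 hK.1.bounded
  have hr0' : ∀ a ∈ K, ∀ b ∈ K, ‖a - b‖ ≤ r0 := fun a ha b hb => by
    rw [← dist_eq_norm]; exact hr0 ha hb
  set κ' : ℝ := (1 + κ) / 2 with hκ'
  have hκ'1 : κ' < 1 := by rw [hκ']; linarith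
  have hκ'0 : 0 ≤ κ' := by rw [hκ']; linarith
  obtain ⟨x0, hx0⟩ := hK.1.nonempty
  have step : ∀ r : ℝ, (∀ a ∈ K, ∀ b ∈ K, ‖a - b‖ ≤ r) → ∀ a ∈ K, ∀ b ∈ K, ‖a - b‖ ≤ κ' * r := by
    intro r hr
    have hrnn : 0 ≤ r := le_trans (norm_nonneg _) (hr x0 hx0 x0 hx0)
    rcases hrnn.eq_or_lt with h0 | hpos
    · intro a ha b hb
      have := hr a ha b hb
      rw [← h0] at this ⊢
      simpa using this
    · obtain ⟨xi, hxiK, hxi⟩ := key K hKC hK.1 r hpos hr
      apply hK.goebel_karlovitz' hKc hTK hxiK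
      intro δ hδ
      have ht0 : 0 < min 1 (δ / r) := lt_min one_pos (by positivity)
      obtain ⟨y, hyK, hy1, hy2⟩ := hxi (min 1 (δ / r)) ht0 (min_le_left _ _)
        ((1 - κ) / 2 * r) (by
          have : 0 < 1 - κ := by linarith
          positivity)
      refine ⟨y, hyK, ?_, ?_⟩
      · calc ‖y - T y‖ ≤ min 1 (δ / r) * r := hy1
          _ ≤ δ / r * r := by gcongr; exact min_le_right _ _
          _ = δ := by field_simp
      · calc ‖y - xi‖ ≤ κ * r + (1 - κ) / 2 * r := hy2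
          _ = κ' * r := by rw [hκ']; ring
  have hpow : ∀ n : ℕ, ∀ a ∈ K, ∀ b ∈ K, ‖a - b‖ ≤ κ' ^ n * r0 := by
    intro n
    induction n with
    | zero => simpa using hr0'
    | succ n ih =>
      intro a ha b hb
      have := step _ ih a ha b hb
      calc ‖a - b‖ ≤ κ' * (κ' ^ n * r0) := this
        _ = κ' ^ (n + 1) * r0 := by ring
  have hsingle : ∀ a ∈ K, ∀ b ∈ K, a = b := by
    intro a ha b hb
    have h1 : Tendsto (fun n : ℕ => κ' ^ n * r0) atTop (𝓝 (0 * r0)) :=
      (tendsto_pow_atTop_nhds_zero_of_lt_one hκ'0 hκ'1).mul_const r0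
    rw [zero_mul] at h1
    have h2 : ‖a - b‖ ≤ 0 := ge_of_tendsto' h1 (fun n => hpow n a ha b hb)
    have h3 : ‖a - b‖ = 0 := le_antisymm h2 (norm_nonneg _)
    exact sub_eq_zero.1 (norm_eq_zero.1 h3)
  exact ⟨x0, hKC hx0, hsingle _ (hK.1.maps hx0) _ hx0⟩

end Vale.Agent.P079
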