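import Vale.Agent.P079.Key

open Filter Topology Set

namespace Vale.Agent.P079

variable {X : Type*} [NormedAddCommGroup X] [NormedSpace ℝ X]

/-- Existence of weak limits along ultrafilters in weakly compact sets. -/
theorem exists_wlimit_of_isCompact {C : Set X} (hK : IsCompact (toWeakSpace ℝ X '' C))
    {ι : Type*} (U : Ultrafilter ι) (u : ι → X) (hu : ∀ᶠ i in (U : Filter ι), u i ∈ C) :
    ∃ x ∈ C, WTendsto u U x := by
  have hle : ((U.map (fun i => toWeakSpace ℝ X (u i)) : Ultrafilter (WeakSpace ℝ X)) :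
      Filter (WeakSpace ℝ X)) ≤ 𝓟 (toWeakSpace ℝ X '' C) := by
    rw [le_principal_iff]
    simp only [Ultrafilter.coe_map, mem_map]
    filter_upwards [hu] with i hi
    exact ⟨u i, hi, rfl⟩
  obtain ⟨y, ⟨x, hxC, rfl⟩, hy⟩ := hK.ultrafilter_le_nhds _ hle
  refine ⟨x, hxC, ?_⟩
  rw [wtendsto_iff_tendsto_toWeakSpace]
  exact hy

/-- closed convex subsets of weakly compact sets are weakly compact -/
theorem isCompact_image_of_subset {C D : Set X} (hC : IsCompact (toWeakSpace ℝ X '' C))
    (hDC : D ⊆ C) (hcl : IsClosed D) (hconv : Convex ℝ D) :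
    IsCompact (toWeakSpace ℝ X '' D) :=
  hC.of_isClosed_subset (isClosed_image_toWeakSpace hcl hconv) (image_mono hDC)

/-- closed convex sets contain the weak limits of their families -/
theorem mem_of_wtendsto {S : Set X} (hcl : IsClosed S) (hconv : Convex ℝ S)
    {ι : Type*} {l : Filter ι} [l.NeBot] {u : ι → X} {y : X} (h : WTendsto u l y)
    (hu : ∀ᶠ i in l, u i ∈ S) : y ∈ S := by
  have h1 := (wtendsto_iff_tendsto_toWeakSpace u l y).1 h
  have h2 : toWeakSpace ℝ X y ∈ toWeakSpace ℝ X '' S := by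
    apply (isClosed_image_toWeakSpace hcl hconv).mem_of_tendsto h1
    filter_upwards [hu] with i hi
    exact ⟨u i, hi, rfl⟩
  obtain ⟨x, hx, hxy⟩ := h2
  have : x = y := (toWeakSpace ℝ X).injective hxy
  rwa [← this]

/-- families having weak limits along all ultrafilters -/
def HasWLimits {ι : Type*} (u : ι → X) : Prop :=
  ∀ G : Ultrafilter ι, ∃ y, WTendsto u (G : Filter ι) y

theorem hasWLimits_of_mem {C : Set X} (hK : IsCompact (toWeakSpace ℝ X '' C))
    {ι : Type*} {u : ι → X} (hu : ∀ i, u i ∈ C) : HasWLimits u := by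
  intro G
  obtain ⟨x, -, hx⟩ := exists_wlimit_of_isCompact hK G u (Eventually.of_forall hu)
  exact ⟨x, hx⟩

theorem hasWLimits_const {ι : Type*} (x : X) : HasWLimits (fun _ : ι => x) :=
  fun G => ⟨x, wtendsto_const _ x⟩

theorem HasWLimits.add {ι : Type*} {u v : ι → X} (hu : HasWLimits u) (hv : HasWLimits v) :
    HasWLimits (fun i => u i + v i) := by
  intro G
  obtain ⟨a, ha⟩ := hu G
  obtain ⟨b, hb⟩ := hv G
  exact ⟨a + b, ha.add hb⟩

theorem HasWLimits.sub {ι : Type*} {u v : ι → X} (hu : HasWLimits u) (hv : HasWLimits v) :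
    HasWLimits (fun i => u i - v i) := by
  intro G
  obtain ⟨a, ha⟩ := hu G
  obtain ⟨b, hb⟩ := hv G
  exact ⟨a - b, ha.sub hb⟩

theorem HasWLimits.comp {ι κ : Type*} {u : ι → X} (hu : HasWLimits u) (φ : κ → ι) :
    HasWLimits (fun k => u (φ k)) := by
  intro G
  obtain ⟨a, ha⟩ := hu (G.map φ)
  refine ⟨a, fun f => ?_⟩
  have := ha f
  rw [Ultrafilter.coe_map, tendsto_map'_iff] at this
  exact this

/-- A sequence with weak limits along all ultrafilters which is killed asymptotically by a suitable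
countable family of functionals is weakly null. -/
theorem wtendsto_zero_of_countable'
    {q : ℕ → X} {g : ℕ → StrongDual ℝ X}
    (hg1 : ∀ j, ‖g j‖ ≤ 1) (hg2 : ∀ j, g j (q j) = ‖q j‖)
    {S : Set X} (hScl : IsClosed S) (hSconv : Convex ℝ S) (hSq : S ⊆ closure (range q))
    {s : ℕ → X} (hlim : HasWLimits s) (hsS : ∀ k, s k ∈ S)
    (h0 : ∀ j, Tendsto (fun k => g j (s k)) atTop (𝓝 0)) : WTendsto s atTop 0 := by
  intro f
  rw [tendsto_iff_ultrafilter]
  intro G hG
  obtain ⟨y, hlim⟩ := hlim G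
  have hyS : y ∈ S := mem_of_wtendsto hScl hSconv hlim (Eventually.of_forall hsS)
  have hy0 : y = 0 := by
    apply eq_zero_of_norming hg1 hg2 (hSq hyS)
    intro j
    exact tendsto_nhds_unique (hlim (g j)) ((h0 j).mono_left hG)
  rw [hy0] at hlim
  exact hlim f

/-- extraction of weakly null sequences, weakly compact version -/
theorem exists_seq_wnull'
    {ι : Type*} [Countable ι] {l : Filter ι} {u : ι → X}
    (hlim : HasWLimits u) (hu : WTendsto u l 0) {P : ι → Prop} (hP : ∃ᶠ i in l, P i) :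
    ∃ i : ℕ → ι, (∀ k, P (i k)) ∧ WTendsto (fun k => u (i k)) atTop 0 := by
  set S : Set X := closure (Submodule.span ℝ (range u) : Set X) with hS
  have hsep : TopologicalSpace.IsSeparable S :=
    ((countable_range u).isSeparable.span (R := ℝ)).closure
  obtain ⟨c, hc, hSc⟩ := hsep
  have hc' : (insert (0 : X) c).Countable := hc.insert 0
  obtain ⟨q, hq⟩ := hc'.exists_eq_range (insert_nonempty 0 c)
  have hSq : S ⊆ closure (range q) := by
    rw [← hq]
    exact hSc.trans (closure_mono (subset_insert _ _))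
  choose g hg1 hg2 using fun j => exists_dual_vector'' ℝ (q j)
  have hg2' : ∀ j, g j (q j) = ‖q j‖ := by
    intro j
    simpa using hg2 j
  have hex : ∀ k : ℕ, ∃ i, P i ∧
      ∀ j ∈ Finset.range (k + 1), |g j (u i)| < 1 / ((k : ℝ) + 1) := by
    intro k
    have h1 : ∀ᶠ i in l, ∀ j ∈ Finset.range (k + 1), |g j (u i)| < 1 / ((k : ℝ) + 1) := by
      rw [Filter.eventually_all_finset]
      intro j _
      have h2 : Tendsto (fun i => g j (u i)) l (𝓝 0) := by simpa using hu (g j)
      have h3 : ∀ᶠ i in l, g j (u i) ∈ Metric.ball (0 : ℝ) (1 / ((k : ℝ) + 1)) :=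
        h2 (Metric.ball_mem_nhds _ (by positivity))
      filter_upwards [h3] with i hi
      simpa [Real.dist_eq] using hi
    exact (hP.and_eventually h1).exists
  choose i hi1 hi3 using hex
  refine ⟨i, hi1, ?_⟩
  apply wtendsto_zero_of_countable' hg1 hg2' (S := S) isClosed_closure
    ((Submodule.span ℝ (range u)).convex.closure) hSq (hlim.comp i)
  · intro k
    exact subset_closure (Submodule.subset_span (mem_range_self _))
  · intro j
    rw [Metric.tendsto_atTop]
    intro ε hε
    obtain ⟨N, hN⟩ := exists_nat_one_div_lt hε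
    refine ⟨max N j, fun k hk => ?_⟩
    have hk1 : N ≤ k := le_trans (le_max_left _ _) hk
    have hk2 : j ≤ k := le_trans (le_max_right _ _) hk
    have h4 := hi3 k j (Finset.mem_range.2 (Nat.lt_succ_of_le hk2))
    have h5 : (1 : ℝ) / ((k : ℝ) + 1) ≤ 1 / ((N : ℝ) + 1) := by
      apply one_div_le_one_div_of_le (by positivity)
      have : (N : ℝ) ≤ k := by exact_mod_cast hk1
      linarith
    rw [Real.dist_eq, sub_zero]
    linarith

/-- Filter version of the near-WORTH inequality for families with weak limits. -/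
theorem NearWorth.eventually'
    {μ : ℝ} (hW : NearWorth X μ) {ι : Type*} [Countable ι] {l : Filter ι} {u : ι → X}
    (hlim : HasWLimits u) (hu : WTendsto u l 0) (x : X) {β : ℝ}
    (hβ : ∀ᶠ i in l, ‖u i - x‖ ≤ β) {η : ℝ} (hη : 0 < η) :
    ∀ᶠ i in l, ‖u i + x‖ ≤ μ * β + η := by
  by_contra hcon
  rw [not_eventually] at hcon
  obtain ⟨i, hi, hnull⟩ := exists_seq_wnull' hlim hu (hcon.and_eventually hβ)
  obtain ⟨n, hn⟩ := hW x (fun k => u (i k)) β hnull (fun k => (hi k).2) η hη
  exact (hi n).1 hn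

end Vale.Agent.P079
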